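import Vale.Agent.P245.K.All
import Vale.Agent.P245.H847.Multi

open MeasureTheory

namespace Vale.Agent.Results.P245.DimensionFreePoincare

open Vale.Agent.P245 Vale.Agent.P245.DFP

/-- The dimension-free Poincaré inequality for all log-concave probability measures (the
Kannan–Lovász–Simonovits conjecture), in affine invariant form, with its consequences for the
logarithmic Sobolev inequality, for any upper bound `Λ` of the covariance matrix and for linearly
`a`-subgaussian measures, with one absolute constant `C`. In particular the logarithmic Sobolev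
inequality of the problem holds for all `f` whose superlevel sets `{|f| ≥ t}`, `t > 0`, are finite
disjoint unions of closed convex sets (`MultipeakLogSobolev`, `T = 0`). -/
theorem result :
    ∃ C : ℝ, 0 < C ∧ ∀ (n : ℕ) (μ : Measure (EuclideanSpace ℝ (Fin n))) [IsProbabilityMeasure μ],
      HasLogConcaveDensity μ →
      AffinePoincare μ C ∧
      (∀ Λ : ℝ, 0 ≤ Λ → CovarianceLE μ Λ → SmoothInequalities μ (C * Λ)) ∧
      (∀ a : ℝ, 0 < a → LinearlySubgaussian μ a →
        SmoothInequalities μ (C * a ^ 2) ∧ MultipeakLogSobolev μ (C * a ^ 2) ∧
        PolynomialLogSobolev μ (C * a ^ 2) ∧ KurtosisLogSobolev μ (C * a ^ 2) ∧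
        ConvexIsoperimetry μ C a ∧ ConvexConcentration μ C a) :=
  H847.handin6 K.kls_final

end Vale.Agent.Results.P245.DimensionFreePoincare
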