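import Vale.Agent.P245.K.All
import Vale.Agent.P245.H208.Final
import Vale.Agent.P245.H368.Hole

open MeasureTheory
open scoped ContDiff

namespace Vale.Agent.Results.P245.EffectiveRank

open Vale.Agent.P245 Vale.Agent.P245.H368

/-- Two results on the logarithmic Sobolev inequality for linearly `a`-subgaussian log-concave
probability measures.

(A) The inequality with the effective rank `N` of the covariance of the gradient of `f` in place
of the dimension: `N = (∑ √I_i)² / ∑ I_i`, where `I_i = ∫ ⟨b_i, ∇f⟩² dμ` for an arbitrary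
orthonormal basis `b`.

(B) The inequality with an absolute constant times `m` for all functions whose super-level sets
above a threshold `T` are finite disjoint unions of closed sets of the class `StarHoles μ m`
(star-shaped sets with a convex kernel of measure at least `μ(B)^m`, possibly with holes), and the
Gaussian isoperimetric inequality for the sets of this class. -/
theorem result :
    (∃ C : ℝ, 0 < C ∧ ∀ (n : ℕ), 1 ≤ n → ∀ (μ : Measure (EuclideanSpace ℝ (Fin n)))
      [IsProbabilityMeasure μ], HasLogConcaveDensity μ → ∀ a : ℝ, 0 < a →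
      LinearlySubgaussian μ a →
      ∀ b : OrthonormalBasis (Fin n) ℝ (EuclideanSpace ℝ (Fin n)),
      ∀ f : EuclideanSpace ℝ (Fin n) → ℝ, ContDiff ℝ ∞ f → HasCompactSupport f →
      ∀ N : ℝ, N = (∑ i, √(∫ x, inner ℝ (b i) (gradient f x) ^ 2 ∂μ)) ^ 2
          / ∫ x, ‖gradient f x‖ ^ 2 ∂μ →
        -- (1) all entropy scales
        (∀ k : ℝ, 1 ≤ k → Entropy μ (fun x => f x ^ 2) ≤
          C * k * a ^ 2 * ∫ x, ‖gradient f x‖ ^ 2 ∂μ
            + N * Real.exp (-k) * ∫ x, f x ^ 2 ∂μ) ∧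
        -- (2) the loss is the logarithm of the effective rank
        Entropy μ (fun x => f x ^ 2) ≤
          C * (1 + Real.log N) * a ^ 2 * ∫ x, ‖gradient f x‖ ^ 2 ∂μ ∧
        -- (3) the same with the entropy inside the logarithm
        Entropy μ (fun x => f x ^ 2) ≤
          C * (1 + Real.log (1 + N * (∫ x, f x ^ 2 ∂μ) / ((∫ x, f x ^ 2 ∂μ)
            + Entropy μ (fun x => f x ^ 2)))) * a ^ 2 * ∫ x, ‖gradient f x‖ ^ 2 ∂μ ∧
        -- (4) the effective rank is at most the dimension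
        (0 < ∫ x, ‖gradient f x‖ ^ 2 ∂μ → 1 ≤ N ∧ N ≤ n)) ∧
    (∃ C : ℝ, 0 < C ∧ ∀ (n : ℕ) (μ : Measure (EuclideanSpace ℝ (Fin n))) [IsProbabilityMeasure μ],
      HasLogConcaveDensity μ → ∀ a : ℝ, 0 < a → LinearlySubgaussian μ a → ∀ m : ℝ, 1 ≤ m →
      (∀ A : Set (EuclideanSpace ℝ (Fin n)), IsClosed A → StarHoles μ m A → 0 < μ.real A →
        μ.real A ≤ 1 / 2 → ∀ r : ℝ, 0 ≤ r → r ≤ a →
        μ.real A * (1 + r * √(Real.log (1 / μ.real A)) / (C * √m * a)) ≤
          μ.real (Metric.cthickening r A)) ∧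
      (∀ f : EuclideanSpace ℝ (Fin n) → ℝ, ContDiff ℝ ∞ f → HasCompactSupport f → ∀ T : ℝ,
        (∀ᵐ t : ℝ, T < t → ∃ (N : ℕ) (A : Fin N → Set (EuclideanSpace ℝ (Fin n))),
          (∀ i, StarHoles μ m (A i)) ∧ (∀ i, IsClosed (A i)) ∧
          (∀ i j, i ≠ j → Disjoint (A i) (A j)) ∧ {x | t ≤ |f x|} = ⋃ i, A i) →
        Entropy μ (fun x => f x ^ 2) ≤
          C * m * (1 + Real.log (1 + T ^ 2 / ∫ x, f x ^ 2 ∂μ)) * a ^ 2 *
            ∫ x, ‖gradient f x‖ ^ 2 ∂μ)) :=
  ⟨H208.final K.kls_final, star_final⟩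

end Vale.Agent.Results.P245.EffectiveRank
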