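import Vale.Agent.P245.H638.Fin

open MeasureTheory
open scoped ContDiff

namespace Vale.Agent.Results.P245.ImprovedLichnerowicz

open Vale.Agent.P245

/-- **Improved Lichnerowicz estimate for the log-Sobolev constant.** There is an absolute constant
`C` such that, for every `n` and every linearly `a`-subgaussian probability measure `μ` on `ℝ^n`
with a density `ρ` for which `{ρ > 0}` is convex and `log ρ + t |x|² / 2` is concave there
(`t > 0`), one has `Ent(f²) ≤ C (a² + a / √t) ∫ |Df|² dμ` for all smooth compactly supported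
`f`. -/
theorem result :
    ∃ C : ℝ, 0 < C ∧ ∀ (n : ℕ), 1 ≤ n → ∀ (μ : Measure (EuclideanSpace ℝ (Fin n)))
      [IsProbabilityMeasure μ] (ρ : EuclideanSpace ℝ (Fin n) → ℝ) (t : ℝ), 0 < t →
      Measurable ρ → (∀ x, 0 ≤ ρ x) →
      ConcaveOn ℝ {x | 0 < ρ x} (fun x => Real.log (ρ x) + t / 2 * ‖x‖ ^ 2) →
      μ = (volume : Measure (EuclideanSpace ℝ (Fin n))).withDensity
        (fun x => ENNReal.ofReal (ρ x)) →
      ∀ a : ℝ, 0 < a → LinearlySubgaussian μ a →
      ∀ f : EuclideanSpace ℝ (Fin n) → ℝ, ContDiff ℝ ∞ f → HasCompactSupport f →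
        Entropy μ (fun x => f x ^ 2) ≤
          C * (a ^ 2 + a / √t) * ∫ x, ‖gradient f x‖ ^ 2 ∂μ := by
  obtain ⟨C, hC, h⟩ := H638.lichnerowicz
  exact ⟨C, hC, fun n hn μ _ ρ t ht hm h0 hc hμ a ha hs f hf hfs =>
    h n hn μ t ht ⟨ρ, hm, h0, hc, hμ⟩ a ha hs f hf hfs⟩

end Vale.Agent.Results.P245.ImprovedLichnerowicz
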