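import Vale.Agent.P245.K.All
import Vale.Agent.P245.H847.Semi3

open MeasureTheory

namespace Vale.Agent.Results.P245.SemiconcaveLogSobolev

open Vale.Agent.P245

/-- Dimension-free logarithmic Sobolev and transport inequalities for further classes of functions,
for all log-concave, linearly `a`-subgaussian probability measures on `ℝ^n`, with one absolute
constant `C`: sums of squares of quasi-concave or semi-log-concave functions, functions with a rare
high part, transports `∇Φ` with bounded `D²Φ`, maxima of affine functions, and log-concave
tilts. -/
theorem result :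
    ∃ C : ℝ, 0 < C ∧ ∀ (n : ℕ) (μ : Measure (EuclideanSpace ℝ (Fin n))) [IsProbabilityMeasure μ],
      HasLogConcaveDensity μ → ∀ a : ℝ, 0 < a → LinearlySubgaussian μ a →
        SLS.QuasiconcavePeaks μ (C * a ^ 2) ∧ SLS.SemiconcavePeaks μ (C * a ^ 2) ∧
        RareLogSobolev μ C a ∧ H663.BoundedStretchTransport μ (C * a ^ 2) ∧
        H7.BesselConcentration μ C a ∧ TiltTransport μ C a :=
  H847.semi3 K.kls_final

end Vale.Agent.Results.P245.SemiconcaveLogSobolev
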